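import Vale.Agent.P268.Hol

/-!
Integrals of holomorphic functions of several complex variables with parameters are holomorphic.
-/

open Set Filter Metric Topology MeasureTheory

namespace Vale.Agent.P273.H857

variable {α E : Type*} [MeasurableSpace α] {μ : Measure α}
  [NormedAddCommGroup E] [NormedSpace ℂ E]

/-- The derivative of a measurable family of differentiable functions is measurable. -/
theorem aestronglyMeasurable_fderiv_family [FiniteDimensional ℂ E] {G : E → α → ℂ} {U : Set E}
    (hU : IsOpen U) (hm : ∀ p ∈ U, AEStronglyMeasurable (G p) μ)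
    (hd : ∀ᵐ a ∂μ, DifferentiableOn ℂ (fun p => G p a) U) {p : E} (hp : p ∈ U) :
    AEStronglyMeasurable (fun a => fderiv ℂ (fun q => G q a) p) μ := by
  classical
  -- directional derivatives
  have hdir : ∀ v : E, AEStronglyMeasurable (fun a => fderiv ℂ (fun q => G q a) p v) μ := by
    intro v
    -- eventually the points stay in `U`
    have hlim : Tendsto (fun n : ℕ => p + ((n : ℂ) + 1)⁻¹ • v) atTop (𝓝 p) := by
      have h1 : Tendsto (fun n : ℕ => ((n : ℂ) + 1)⁻¹) atTop (𝓝 0) := by
        have := tendsto_one_div_add_atTop_nhds_zero_nat (𝕜 := ℂ)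
        simpa using this
      have h2 := (h1.smul_const v).const_add p
      simpa using h2
    obtain ⟨N, hN⟩ := eventually_atTop.1 (hlim (hU.mem_nhds hp))
    refine aestronglyMeasurable_of_tendsto_ae (u := atTop)
      (f := fun (n : ℕ) a => ((n : ℂ) + N + 1) • (G (p + ((n : ℂ) + N + 1)⁻¹ • v) a - G p a)) ?_ ?_
    · intro n
      have h3 : p + ((n : ℂ) + N + 1)⁻¹ • v ∈ U := by
        have := hN (n + N) (Nat.le_add_left _ _)
        simpa [Nat.cast_add] using this
      exact ((hm _ h3).sub (hm _ hp)).const_smul ((n : ℂ) + N + 1)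
    · filter_upwards [hd] with a ha
      have h4 : HasFDerivAt (fun q => G q a) (fderiv ℂ (fun q => G q a) p) p :=
        (ha.differentiableAt (hU.mem_nhds hp)).hasFDerivAt
      have h5 : Tendsto (fun n : ℕ => ((n : ℂ) + N + 1)⁻¹) atTop (𝓝 0) := by
        have := (tendsto_add_atTop_iff_nat N).2
          (tendsto_one_div_add_atTop_nhds_zero_nat (𝕜 := ℂ))
        simpa [Nat.cast_add] using this
      have h6 : Tendsto (fun n : ℕ => ((n : ℂ) + N + 1)⁻¹) atTop (𝓝[≠] 0) := by
        refine tendsto_nhdsWithin_iff.2 ⟨h5, Eventually.of_forall fun n => ?_⟩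
        have : ((n : ℂ) + N + 1) ≠ 0 := by
          have : ((n + N + 1 : ℕ) : ℂ) ≠ 0 := Nat.cast_ne_zero.2 (by omega)
          simpa using this
        exact inv_ne_zero this
      have h7 : HasDerivAt (fun t : ℂ => G (p + t • v) a) (fderiv ℂ (fun q => G q a) p v) 0 := by
        have h8 : HasDerivAt (fun t : ℂ => p + t • v) v 0 := by
          simpa using ((hasDerivAt_id (0 : ℂ)).smul_const v).const_add p
        have h9 : HasFDerivAt (fun q => G q a) (fderiv ℂ (fun q => G q a) p)
            (p + (0 : ℂ) • v) := by simpa using h4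
        exact h9.comp_hasDerivAt (0 : ℂ) h8
      have h10 := h7.tendsto_slope_zero.comp h6
      refine h10.congr fun n => ?_
      simp
  -- assemble from a basis
  let b := Module.finBasis ℂ E
  have hrep : (fun a => fderiv ℂ (fun q => G q a) p) = fun a =>
      ∑ i, (fderiv ℂ (fun q => G q a) p (b i)) • (LinearMap.toContinuousLinearMap (b.coord i)) := by
    funext a
    ext v
    rw [_root_.sum_apply]
    conv_lhs => rw [← b.sum_repr v, map_sum]
    refine Finset.sum_congr rfl fun i _ => ?_
    rw [map_smul, _root_.smul_apply]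
    simp [mul_comm]
  rw [hrep]
  refine Finset.aestronglyMeasurable_fun_sum _ fun i _ => ?_
  exact (hdir (b i)).smul_const _

/-- Parameter integrals of holomorphic functions: derivative under the integral sign. -/
theorem hasFDerivAt_integral_hol [FiniteDimensional ℂ E] {G : E → α → ℂ} {U : Set E}
    (hU : IsOpen U) (hm : ∀ p ∈ U, AEStronglyMeasurable (G p) μ)
    (hd : ∀ᵐ a ∂μ, DifferentiableOn ℂ (fun p => G p a) U) {p : E} {r : ℝ} (hr : 0 < r)
    (hrU : ball p r ⊆ U) {g : α → ℝ} (hg : Integrable g μ)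
    (hb : ∀ᵐ a ∂μ, ∀ q ∈ ball p r, ‖G q a‖ ≤ g a) :
    Integrable (fun a => fderiv ℂ (fun q => G q a) p) μ ∧
    HasFDerivAt (fun q => ∫ a, G q a ∂μ) (∫ a, fderiv ℂ (fun q => G q a) p ∂μ) p := by
  have hp : p ∈ U := hrU (mem_ball_self hr)
  have hr2 : 0 < r / 2 := by positivity
  have hbound : ∀ᵐ a ∂μ, ∀ q ∈ ball p (r / 2), ‖fderiv ℂ (fun q => G q a) q‖ ≤ g a / (r / 2) := by
    filter_upwards [hd, hb] with a ha1 ha2 q hq
    have hsub : ball q (r / 2) ⊆ ball p r := by
      intro z hz
      rw [mem_ball] at hz hq ⊢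
      calc dist z p ≤ dist z q + dist q p := dist_triangle _ _ _
        _ < r := by linarith
    exact Vale.Agent.P268.norm_fderiv_le_of_ball hr2 (ha1.mono (hsub.trans hrU))
      fun y hy => ha2 y (hsub hy)
  have hint : Integrable (G p) μ :=
    hg.mono' (hm p hp) (hb.mono fun a ha => ha p (mem_ball_self hr))
  have hF' := aestronglyMeasurable_fderiv_family hU hm hd hp
  have h := hasFDerivAt_integral_of_dominated_of_fderiv_le (𝕜 := ℂ) (μ := μ)
    (F := fun q a => G q a) (F' := fun q a => fderiv ℂ (fun q => G q a) q) (x₀ := p)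
    (bound := fun a => g a / (r / 2)) (s := ball p (r / 2)) (ball_mem_nhds p hr2)
    (by
      filter_upwards [hU.mem_nhds hp] with q hq using hm q hq)
    hint hF' hbound (hg.div_const _)
    (by
      filter_upwards [hd] with a ha q hq
      have hqU : q ∈ U := hrU (ball_subset_ball (by linarith) hq)
      exact (ha.differentiableAt (hU.mem_nhds hqU)).hasFDerivAt)
  refine ⟨?_, h⟩
  refine (hg.div_const (r / 2)).mono' hF' ?_
  filter_upwards [hbound] with a ha
  exact ha p (mem_ball_self hr2)

/-- Parameter integrals of holomorphic functions are holomorphic. -/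
theorem differentiableOn_integral_hol [FiniteDimensional ℂ E] {G : E → α → ℂ} {U : Set E}
    (hU : IsOpen U) (hm : ∀ p ∈ U, AEStronglyMeasurable (G p) μ)
    (hd : ∀ᵐ a ∂μ, DifferentiableOn ℂ (fun p => G p a) U)
    (hb : ∀ p ∈ U, ∃ r > 0, ball p r ⊆ U ∧ ∃ g : α → ℝ, Integrable g μ ∧
      ∀ᵐ a ∂μ, ∀ q ∈ ball p r, ‖G q a‖ ≤ g a) :
    DifferentiableOn ℂ (fun p => ∫ a, G p a ∂μ) U := by
  intro p hp
  obtain ⟨r, hr, hrU, g, hg, hgb⟩ := hb p hp
  exact (hasFDerivAt_integral_hol hU hm hd hr hrU hg hgb).2.differentiableAt.differentiableWithinAt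

end Vale.Agent.P273.H857
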