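import Vale.Agent.P273.H225.Ind
import Vale.Agent.P273.H970.GPEX
import Vale.Agent.P273.H484.GPLOW
import Vale.Agent.P273.H787.GPHOLn
import Vale.Agent.P273.H539.GPFLIPn
import Vale.Agent.P273.H539.GPALT
import Vale.Agent.P273.H965.FlipL
import Vale.Agent.P273.H3.GPDEC
import Vale.Agent.P273.H595.HolR

/-!
The statements of `Stm` that are proved, without hypotheses (collected from the files of their
authors). First part: everything except the structure at a root and at infinity.
-/

namespace Vale.Agent.P273.H857

open H595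

theorem stmEX : StmEX := H970.stmEX

theorem stmLOW : StmLOW := H484.stmLOW

theorem stmLOWR : StmLOWR := H484.stmLOWR

theorem stmINVn : StmINVn := H225.stmINVn

theorem stmINV : StmINV := H225.stmINV

theorem stmHOLn : StmHOLn := H787.GP.stmHOLn stmEX stmLOW stmINVn

theorem stmHOL : StmHOL := stmHOLn.inj

theorem stmHOLRn : StmHOLRn := H595.stmHOLRn stmEX stmLOWR stmINVn

theorem stmHOLR : StmHOLR := stmHOLRn.inj

theorem stmFLIPRn : StmFLIPRn := H539.N.stmFLIPRn

theorem stmFLIPR : StmFLIPR := H539.stmFLIPR

theorem stmFLIPL : StmFLIPL := H965.stmFLIPL stmEX stmINV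

theorem stmDEC : StmDEC := H3.stmDEC stmINV

theorem stmALT : StmALT := H539.stmALT stmFLIPL stmDEC

end Vale.Agent.P273.H857
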