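import Vale.Agent.P273.H857.All1
import Vale.Agent.P273.H857.Chain
import Vale.Agent.P273.H595.Om
import Vale.Agent.P273.H356.FlatSw

/-!
The half periods after an exchange of two neighbouring labels (off the wall).
-/

open Complex Set

namespace Vale.Agent.P273.H857

noncomputable section

/-- the pairs of half periods -/
def pX (b : C6) (j : Fin 6) : ℂ × ℂ := (piX 0 j b, piX 1 j b)

theorem swL_eq (k : Fin 5) (b : C6) :
    H681.swL k b = b ∘ Equiv.swap k.castSucc k.succ := rfl

theorem lo_succ (k : Fin 5) : lo k.succ = insert k.castSucc (lo k.castSucc) := by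
  revert k; decide

theorem lo_map_succ (k : Fin 5) : (lo k.succ).map (Equiv.swap k.castSucc k.succ).toEmbedding =
    insert k.succ (lo k.castSucc) := by
  revert k; decide

theorem lo_map_castSucc (k : Fin 5) :
    (lo k.castSucc).map (Equiv.swap k.castSucc k.succ).toEmbedding = lo k.castSucc := by
  revert k; decide

theorem swap_mem_XX (k : Fin 5) {b : C6} (hb : b ∈ XX) (h : (b k.succ).re < (b k.castSucc).re) :
    b ∘ Equiv.swap k.castSucc k.succ ∈ XX :=
  H356.swap_mem_XX k (b := b) hb h

theorem P_swap (m : ℕ) (k : Fin 5) (B : Finset (Fin 6)) (b : C6) (x : ℂ) :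
    P m B (b ∘ Equiv.swap k.castSucc k.succ) x =
      P m (B.map (Equiv.swap k.castSucc k.succ).toEmbedding) b x := by
  have h := H595.P_perm (Equiv.swap k.castSucc k.succ) m B (b ∘ Equiv.swap k.castSucc k.succ) x
  rw [← h]
  congr 1
  funext l
  simp

theorem OK_swap (k : Fin 5) (B : Finset (Fin 6)) (b : C6) (x : ℂ) :
    OK (B.map (Equiv.swap k.castSucc k.succ).toEmbedding) b x ↔
      OK B (b ∘ Equiv.swap k.castSucc k.succ) x := by
  have h := H595.ok_perm (Equiv.swap k.castSucc k.succ) B (b ∘ Equiv.swap k.castSucc k.succ) x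
  rw [← h]
  have e : (b ∘ Equiv.swap k.castSucc k.succ) ∘ (Equiv.swap k.castSucc k.succ).symm = b := by
    funext l; simp
  rw [e]

/-- the label `k + 1` -/
theorem piX_swap_succ {m : ℕ} (hm : m ≤ 1) (k : Fin 5) {b : C6} (hb : b ∈ XX)
    (h : (b k.succ).re < (b k.castSucc).re) :
    piX m k.succ (b ∘ Equiv.swap k.castSucc k.succ) = piX m k.castSucc b := by
  have hi := XX_injective hb
  have hb' := swap_mem_XX k hb h
  have e : (b ∘ Equiv.swap k.castSucc k.succ) k.succ = b k.castSucc := by simp
  have h1 := OK_lo hb' k.succ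
  rw [e, ← OK_swap, lo_map_succ] at h1
  unfold piX
  rw [P_swap, e, lo_map_succ]
  exact stmFLIPR m (lo k.castSucc) b (b k.castSucc) k.succ hm hi
    (by rw [mem_lo, not_lt]; exact Fin.castSucc_lt_succ.le) (OK_lo hb _) h1 h.le

/-- the label `k` -/
theorem piX_swap_castSucc {m : ℕ} (hm : m ≤ 1) (k : Fin 5) {b : C6} (hb : b ∈ XX)
    (h : (b k.succ).re < (b k.castSucc).re) :
    piX m k.castSucc (b ∘ Equiv.swap k.castSucc k.succ) =
      piX m k.castSucc b + piX m k.castSucc b - piX m k.succ b := by
  have hi := XX_injective hb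
  have hb' := swap_mem_XX k hb h
  have e : (b ∘ Equiv.swap k.castSucc k.succ) k.castSucc = b k.succ := by simp
  have h1 := OK_lo hb' k.castSucc
  rw [e, ← OK_swap, lo_map_castSucc] at h1
  have h2 := OK_lo hb k.succ
  have h3 := stmFLIPL m (lo k.castSucc) b (b k.succ) k.castSucc hm hi
    (by rw [mem_lo]; exact lt_irrefl _) h1 (by rw [← lo_succ]; exact h2) h
  rw [← lo_succ] at h3
  unfold piX
  rw [P_swap, e, lo_map_castSucc]
  linear_combination h3

/-- **EQ**: the half periods after the exchange -/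
theorem pX_swL (k : Fin 5) {b : C6} (hb : b ∈ XX) (h : (b k.succ).re < (b k.castSucc).re) :
    pX (H681.swL k b) = H356.sB k (pX b) := by
  rw [swL_eq]
  funext j
  by_cases h1 : j = k.castSucc
  · subst h1
    rw [H356.sB_cs]
    simp only [pX, Prod.mk_add_mk, Prod.mk_sub_mk]
    rw [piX_swap_castSucc (by norm_num) k hb h, piX_swap_castSucc (by norm_num) k hb h]
  · by_cases h2 : j = k.succ
    · subst h2
      rw [H356.sB_sc]
      simp only [pX]
      rw [piX_swap_succ (by norm_num) k hb h, piX_swap_succ (by norm_num) k hb h]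
    · rw [H356.sB_of_ne h1 h2]
      simp only [pX]
      rw [H595.piX_swap 0 j k (Ne.symm h1) (Ne.symm h2), H595.piX_swap 1 j k (Ne.symm h1)
        (Ne.symm h2)]

end

end Vale.Agent.P273.H857
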