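import Vale.Agent.P273.H857.Chain
import Vale.Agent.P273.H908.Max
import Vale.Agent.P273.H908.Inv

/-!
Real parts of the primitives: flips, independence of the labels, non degeneracy on all of `XX`.
-/

open Complex Set Filter Topology MeasureTheory
open scoped ContDiff

namespace Vale.Agent.P273.H857

noncomputable section

/-- the value of the potential -/
def VV (v : ℂ × ℂ × ℝ) (B : Finset (Fin 6)) (b : C6) (x : ℂ) : ℝ :=
  H908.val (P 0 B b x, P 1 B b x) v

theorem VV_def (v : ℂ × ℂ × ℝ) (B : Finset (Fin 6)) (b : C6) (x : ℂ) :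
    VV v B b x = (v.1 * P 0 B b x + v.2.1 * P 1 B b x).re + v.2.2 := rfl

/-- `OK` is an open condition, also near the roots -/
theorem OK.near_root {B : Finset (Fin 6)} {b : C6} {j : Fin 6} (hb : Function.Injective b)
    (h : OK B b (b j)) (hj : j ∉ B) : ∀ᶠ p : C6 × ℂ in 𝓝 (b, 0),
      (p.2 ∈ Sl → OK B p.1 (p.1 j + p.2)) ∧ (p.2 ∈ Su → OK (insert j B) p.1 (p.1 j + p.2)) := by
  have cr : ∀ l, Continuous fun p : C6 × ℂ => (p.1 l).re := fun l => by fun_prop
  have ci : ∀ l, Continuous fun p : C6 × ℂ => (p.1 l).im := fun l => by fun_prop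
  have xr : Continuous fun p : C6 × ℂ => (p.1 j + p.2).re := by fun_prop
  have xi : Continuous fun p : C6 × ℂ => (p.1 j + p.2).im := by fun_prop
  have x0r : ((b, (0 : ℂ)).1 j + (b, (0 : ℂ)).2).re = (b j).re := by simp
  have x0i : ((b, (0 : ℂ)).1 j + (b, (0 : ℂ)).2).im = (b j).im := by simp
  -- pairs of labels
  have h1 : ∀ l m, l ∈ B → m ∉ B → ∀ᶠ p : C6 × ℂ in 𝓝 (b, 0),
      ((p.1 l).re = (p.1 m).re → (p.1 j + p.2).re < (p.1 l).re → (p.1 m).im < (p.1 l).im) := by
    intro l m hl hm
    by_cases e : (b l).re = (b m).re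
    · have hlj : l ≠ j := by rintro rfl; exact hj hl
      rcases lt_trichotomy (b j).re (b l).re with h2 | h2 | h2
      · have h3 := h.1 l hl m hm e h2
        filter_upwards [(ci m).continuousAt.eventually_lt (ci l).continuousAt h3] with p hp
        exact fun _ _ => hp
      · have h3 := (h.2 l (fun h5 => hlj (hb h5)) h2.symm).1 hl
        have h4 : (b m).im < (b l).im := by
          rcases eq_or_ne m j with rfl | hmj
          · exact h3
          · exact ((h.2 m (fun h5 => hmj (hb h5)) (by rw [← e, h2])).2 hm).trans h3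
        filter_upwards [(ci m).continuousAt.eventually_lt (ci l).continuousAt h4] with p hp
        exact fun _ _ => hp
      · have h3 : (fun p : C6 × ℂ => (p.1 l).re) (b, 0) <
            (fun p : C6 × ℂ => (p.1 j + p.2).re) (b, 0) := by simpa using h2
        filter_upwards [(cr l).continuousAt.eventually_lt xr.continuousAt h3] with p hp
        exact fun _ h5 => absurd (hp.trans h5) (lt_irrefl _)
    · have h2 : ∀ᶠ p : C6 × ℂ in 𝓝 (b, 0), (p.1 l).re ≠ (p.1 m).re :=
        (cr l).continuousAt.eventually_ne (x := (b, (0 : ℂ))) (y := (b m).re) e |>.and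
          ((cr m).continuousAt.eventually_ne (x := (b, (0 : ℂ))) (y := (b l).re) (Ne.symm e)) |>.mp
          (by
            have := ((cr l).sub (cr m)).continuousAt.eventually_ne (x := (b, (0 : ℂ))) (y := 0)
              (by simpa using sub_ne_zero.2 e)
            filter_upwards [this] with p hp _
            exact fun h5 => hp (by simp [h5]))
      filter_upwards [h2] with p hp
      exact fun h5 => absurd h5 hp
  -- the label `j` and another label outside
  have h1j : ∀ m, m ∉ B → m ≠ j → ∀ᶠ p : C6 × ℂ in 𝓝 (b, 0),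
      ((p.1 j).re = (p.1 m).re → (p.1 m).im < (p.1 j).im) := by
    intro m hm hmj
    by_cases e : (b j).re = (b m).re
    · have h3 := (h.2 m (fun h5 => hmj (hb h5)) e.symm).2 hm
      filter_upwards [(ci m).continuousAt.eventually_lt (ci j).continuousAt h3] with p hp
      exact fun _ => hp
    · have := ((cr j).sub (cr m)).continuousAt.eventually_ne (x := (b, (0 : ℂ))) (y := 0)
        (by simpa using sub_ne_zero.2 e)
      filter_upwards [this] with p hp
      exact fun h5 => absurd (by simp [h5]) hp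
  -- labels on the line of the root
  have h2 : ∀ l, l ≠ j → ∀ᶠ p : C6 × ℂ in 𝓝 (b, 0), ((p.1 l).re = (p.1 j + p.2).re →
      (l ∈ B → (p.1 j + p.2).im < (p.1 l).im) ∧ (l ∉ B → (p.1 l).im < (p.1 j + p.2).im)) := by
    intro l hl
    by_cases e : (b l).re = (b j).re
    · have h3 := h.2 l (fun h5 => hl (hb h5)) e
      by_cases hlB : l ∈ B
      · have h4 : (fun p : C6 × ℂ => (p.1 j + p.2).im) (b, 0) <
            (fun p : C6 × ℂ => (p.1 l).im) (b, 0) := by simpa using h3.1 hlB
        filter_upwards [xi.continuousAt.eventually_lt (ci l).continuousAt h4] with p hp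
        exact fun _ => ⟨fun _ => hp, fun h5 => absurd hlB h5⟩
      · have h4 : (fun p : C6 × ℂ => (p.1 l).im) (b, 0) <
            (fun p : C6 × ℂ => (p.1 j + p.2).im) (b, 0) := by simpa using h3.2 hlB
        filter_upwards [(ci l).continuousAt.eventually_lt xi.continuousAt h4] with p hp
        exact fun _ => ⟨fun h5 => absurd h5 hlB, fun _ => hp⟩
    · have := ((cr l).sub xr).continuousAt.eventually_ne (x := (b, (0 : ℂ))) (y := 0)
        (by simpa using sub_ne_zero.2 e)
      filter_upwards [this] with p hp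
      exact fun h5 => absurd (by simp [h5]) hp
  have h1' : ∀ᶠ p : C6 × ℂ in 𝓝 (b, 0), ∀ l m, l ∈ B → m ∉ B →
      ((p.1 l).re = (p.1 m).re → (p.1 j + p.2).re < (p.1 l).re → (p.1 m).im < (p.1 l).im) := by
    rw [eventually_all]; intro l
    rw [eventually_all]; intro m
    by_cases hl : l ∈ B
    · by_cases hm : m ∉ B
      · filter_upwards [h1 l m hl hm] with p hp _ _; exact hp
      · exact Eventually.of_forall fun p _ h => absurd h hm
    · exact Eventually.of_forall fun p h => absurd h hl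
  have h1j' : ∀ᶠ p : C6 × ℂ in 𝓝 (b, 0), ∀ m, m ∉ B → m ≠ j →
      ((p.1 j).re = (p.1 m).re → (p.1 m).im < (p.1 j).im) := by
    rw [eventually_all]; intro m
    by_cases hm : m ∉ B
    · by_cases hmj : m ≠ j
      · filter_upwards [h1j m hm hmj] with p hp _ _; exact hp
      · exact Eventually.of_forall fun p _ h => absurd h hmj
    · exact Eventually.of_forall fun p h => absurd h hm
  have h2' : ∀ᶠ p : C6 × ℂ in 𝓝 (b, 0), ∀ l, l ≠ j → ((p.1 l).re = (p.1 j + p.2).re →
      (l ∈ B → (p.1 j + p.2).im < (p.1 l).im) ∧ (l ∉ B → (p.1 l).im < (p.1 j + p.2).im)) := by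
    rw [eventually_all]; intro l
    by_cases hl : l ≠ j
    · filter_upwards [h2 l hl] with p hp _; exact hp
    · exact Eventually.of_forall fun p h => absurd h hl
  filter_upwards [h1', h1j', h2'] with p p1 p2 p3
  refine ⟨fun hw => ⟨fun l hl m hm => p1 l m hl hm, fun l hl e => ?_⟩,
    fun hw => ⟨fun l hl m hm e h4 => ?_, fun l hl e => ?_⟩⟩
  · rcases eq_or_ne l j with rfl | hlj
    · refine ⟨fun h5 => absurd h5 hj, fun _ => ?_⟩
      rcases hw with hw | hw
      · rw [add_im]; linarith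
      · rw [add_re] at e; exact absurd (by linarith) hw
    · exact p3 l hlj e
  · rw [Finset.mem_insert] at hl
    rw [Finset.mem_insert, not_or] at hm
    rcases hl with rfl | hl
    · exact p2 m hm.2 hm.1 e
    · exact p1 l m hl hm.2 e h4
  · rcases eq_or_ne l j with rfl | hlj
    · refine ⟨fun _ => ?_, fun h5 => absurd (Finset.mem_insert_self _ _) h5⟩
      rcases hw with hw | hw
      · rw [add_im]; linarith
      · rw [add_re] at e; exact absurd (by linarith) hw
    · have h5 := p3 l hlj e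
      rw [Finset.mem_insert]
      exact ⟨fun h6 => h5.1 (h6.resolve_left hlj), fun h6 => h5.2 fun h7 => h6 (Or.inr h7)⟩

section Flip

variable (hFR : StmFLIPR) (hFL : StmFLIPL)

include hFR in
theorem VV_right {b : C6} (hb : Function.Injective b) {B : Finset (Fin 6)} {x : ℂ} {m : Fin 6}
    (hm : m ∉ B) (h : OK B b x) (h' : OK (insert m B) b x) (hr : (b m).re ≤ x.re)
    (v : ℂ × ℂ × ℝ) : VV v (insert m B) b x = VV v B b x := by
  rw [VV_def, VV_def, hFR 0 B b x m (by norm_num) hb hm h h' hr,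
    hFR 1 B b x m (by norm_num) hb hm h h' hr]

include hFL in
theorem VV_left {b : C6} (hb : Function.Injective b) {B : Finset (Fin 6)} {x : ℂ} {m : Fin 6}
    (hm : m ∉ B) (h : OK B b x) (h' : OK (insert m B) b x) (hr : x.re < (b m).re)
    (v : ℂ × ℂ × ℝ) : VV v (insert m B) b x + VV v B b x = 2 * VV v B b (b m) := by
  have h0 := hFL 0 B b x m (by norm_num) hb hm h h' hr
  have h1 := hFL 1 B b x m (by norm_num) hb hm h h' hr
  have e : v.1 * P 0 (insert m B) b x + v.2.1 * P 1 (insert m B) b x +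
      (v.1 * P 0 B b x + v.2.1 * P 1 B b x) =
      2 * (v.1 * P 0 B b (b m) + v.2.1 * P 1 B b (b m)) := by
    linear_combination v.1 * h0 + v.2.1 * h1
  have e2 := congrArg Complex.re e
  rw [add_re] at e2
  have e3 : (2 * (v.1 * P 0 B b (b m) + v.2.1 * P 1 B b (b m))).re =
      2 * (v.1 * P 0 B b (b m) + v.2.1 * P 1 B b (b m)).re := by simp
  rw [e3] at e2
  rw [VV_def, VV_def, VV_def]
  linarith

/-- the number of roots to the right -/
def nr (b : C6) (l : Fin 6) : ℕ := (Finset.univ.filter fun m => (b l).re < (b m).re).card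

theorem nr_lt {b : C6} {l m : Fin 6} (h : (b l).re < (b m).re) : nr b m < nr b l := by
  refine Finset.card_lt_card ?_
  rw [Finset.ssubset_iff_of_subset]
  · exact ⟨m, by simpa using h, by simp⟩
  · intro n hn
    simp only [Finset.mem_filter, Finset.mem_univ, true_and] at hn ⊢
    exact h.trans hn

include hFR hFL in
/-- if the potential vanishes at the six basic half periods, it vanishes at all roots -/
theorem VV_root_zero {b : C6} (hb : b ∈ XX) {v : ℂ × ℂ × ℝ}
    (h0 : ∀ j, VV v (lo j) b (b j) = 0) {B : Finset (Fin 6)} {l : Fin 6}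
    (hB : OK B b (b l)) : VV v B b (b l) = 0 := by
  have hi := XX_injective hb
  have key : ∀ n : ℕ, ∀ l, nr b l = n → ∀ B, OK B b (b l) → VV v B b (b l) = 0 := by
    intro n
    induction n using Nat.strong_induction_on with
    | _ n ih =>
      intro l hl B hB
      refine (OK.chain hb (Q := fun B => VV v B b (b l) = 0) (x := b l) ?_ hB (OK_lo hb l)).2 (h0 l)
      intro B m hm h h'
      rcases le_or_gt (b m).re (b l).re with h1 | h1
      · rw [VV_right hFR hi hm h h' h1]
      · have h2 := VV_left hFL hi hm h h' h1 v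
        have h3 := ih (nr b m) (hl ▸ nr_lt h1) m rfl B (OK.flip_root hm h h' h1)
        rw [h3, mul_zero] at h2
        constructor
        · intro h4; linarith
        · intro h4; linarith
  exact key _ l rfl B hB

include hFR hFL in
/-- the modulus of the potential does not depend on the labels -/
theorem abs_VV_indep {b : C6} (hb : b ∈ XX) {v : ℂ × ℂ × ℝ}
    (h0 : ∀ j, VV v (lo j) b (b j) = 0) {B C : Finset (Fin 6)} {x : ℂ}
    (hB : OK B b x) (hC : OK C b x) : |VV v B b x| = |VV v C b x| := by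
  have hi := XX_injective hb
  have := OK.chain hb (Q := fun D => |VV v B b x| = |VV v D b x|) (x := x) ?_ hB hC
  · exact this.1 rfl
  intro D m hm h h'
  rcases le_or_gt (b m).re x.re with h1 | h1
  · rw [VV_right hFR hi hm h h' h1]
  · have h2 := VV_left hFL hi hm h h' h1 v
    rw [VV_root_zero hFR hFL hb h0 (OK.flip_root hm h h' h1), mul_zero] at h2
    have h3 : VV v (insert m D) b x = -VV v D b x := by linarith
    rw [h3, abs_neg]

end Flip

section Pot

variable (hEX : StmEX) (hLOW : StmLOW) (hHOL : StmHOL) (hROOT : StmROOT)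
  (hFR : StmFLIPR) (hFL : StmFLIPL)

/-- the modulus of the potential -/
def MM (v : ℂ × ℂ × ℝ) (b : C6) (x : ℂ) : ℝ := |VV v (TA b x) b x|

theorem norm_sq_eq (B : Finset (Fin 6)) (b : C6) (x : ℂ) : ‖sq B b x‖ = ‖H908.sq b x‖ := by
  unfold sq H908.sq
  rw [norm_prod, norm_prod]
  exact Finset.prod_congr rfl fun l _ => by rw [norm_br, H908.norm_rt]

include hEX hLOW hHOL hFR hFL in
theorem MM_loc {b : C6} (hb : b ∈ XX) {v : ℂ × ℂ × ℝ} (h0 : ∀ j, VV v (lo j) b (b j) = 0)
    {x₀ : ℂ} (hx : ∀ j, x₀ ≠ b j) : ∃ Φ D : ℂ → ℂ, ∀ᶠ x in 𝓝 x₀, HasDerivAt Φ (D x) x ∧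
      MM v b x = |(Φ x).re| ∧ ‖D x‖ = ‖v.1 + v.2.1 * x‖ / ‖H908.sq b x‖ := by
  have hi := XX_injective hb
  set B := TA b x₀ with hB
  refine ⟨fun x => v.1 * P 0 B b x + v.2.1 * P 1 B b x + (v.2.2 : ℂ),
    fun x => (v.1 + v.2.1 * x) / sq B b x, ?_⟩
  have h1 := (OK_TA b x₀).eventually hEX hLOW fun l => (hx l).symm
  have h2 : ∀ᶠ x in 𝓝 x₀, OK B b x ∧ ∀ l, b l ≠ x :=
    (Continuous.prodMk_right b).continuousAt.eventually (p := fun p : C6 × ℂ => OK B p.1 p.2 ∧
      ∀ l, p.1 l ≠ p.2) h1
  filter_upwards [h2] with x hx1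
  refine ⟨?_, ?_, ?_⟩
  · have d0 := (hHOL 0 B b x (by norm_num) hi hx1.2 hx1.1).2
    have d1 := (hHOL 1 B b x (by norm_num) hi hx1.2 hx1.1).2
    have h3 := ((d0.const_mul v.1).fun_add (d1.const_mul v.2.1)).add_const (v.2.2 : ℂ)
    have e : (v.1 + v.2.1 * x) / sq B b x =
        v.1 * (x ^ 0 / sq B b x) + v.2.1 * (x ^ 1 / sq B b x) := by ring
    rw [e]
    exact h3
  · rw [MM, abs_VV_indep hFR hFL hb h0 (OK_TA b x) hx1.1, VV_def]
    simp
  · rw [norm_div, norm_sq_eq]

include hEX hLOW hHOL hROOT hFR hFL in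
theorem continuous_MM {b : C6} (hb : b ∈ XX) {v : ℂ × ℂ × ℝ}
    (h0 : ∀ j, VV v (lo j) b (b j) = 0) : Continuous (MM v b) := by
  have hi := XX_injective hb
  rw [continuous_iff_continuousAt]
  intro x
  by_cases h : ∀ j, x ≠ b j
  · obtain ⟨Φ, D, hΦ⟩ := MM_loc hEX hLOW hHOL hFR hFL hb h0 h
    have h1 : ContinuousAt (fun x => |(Φ x).re|) x :=
      (continuous_re.continuousAt.comp hΦ.self_of_nhds.1.continuousAt).abs
    exact h1.congr (hΦ.mono fun y hy => hy.2.1.symm)
  · push Not at h
    obtain ⟨j, rfl⟩ := h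
    have hM0 : MM v b (b j) = 0 := by
      rw [MM, VV_root_zero hFR hFL hb h0 (OK_TA b (b j)), abs_zero]
    set B := TA b (b j) with hB
    have hj : j ∉ B := by rw [hB, mem_TA]; exact fun h => lt_irrefl _ h.2
    have hB0 : VV v B b (b j) = 0 := VV_root_zero hFR hFL hb h0 (OK_TA b (b j))
    obtain ⟨a0, r0⟩ := hROOT 0 B b j (by norm_num) hi (OK_TA b (b j)) hj
    obtain ⟨a1, r1⟩ := hROOT 1 B b j (by norm_num) hi (OK_TA b (b j)) hj
    have hok := (OK_TA b (b j)).near_root hi hj
    have hc : ContinuousAt (fun w : ℂ => (b, w)) 0 := (Continuous.prodMk_right b).continuousAt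
    have r0' := hc.eventually (p := fun p : C6 × ℂ =>
        (p.2 ∈ Sl → P 0 B p.1 (p.1 j + p.2) = P 0 B p.1 (p.1 j) + rt p.2 * Er 0 j B p.1 p.2) ∧
          (p.2 ∈ Su → P 0 (insert j B) p.1 (p.1 j + p.2) =
            P 0 B p.1 (p.1 j) + ru p.2 * Er 0 j B p.1 p.2)) r0
    have r1' := hc.eventually (p := fun p : C6 × ℂ =>
        (p.2 ∈ Sl → P 1 B p.1 (p.1 j + p.2) = P 1 B p.1 (p.1 j) + rt p.2 * Er 1 j B p.1 p.2) ∧
          (p.2 ∈ Su → P 1 (insert j B) p.1 (p.1 j + p.2) =
            P 1 B p.1 (p.1 j) + ru p.2 * Er 1 j B p.1 p.2)) r1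
    have hok' := hc.eventually (p := fun p : C6 × ℂ =>
      (p.2 ∈ Sl → OK B p.1 (p.1 j + p.2)) ∧ (p.2 ∈ Su → OK (insert j B) p.1 (p.1 j + p.2))) hok
    set F : ℂ → ℂ := fun w => v.1 * Er 0 j B b w + v.2.1 * Er 1 j B b w with hF
    have hFc : ContinuousAt F 0 := by
      have c0 : ContinuousAt (fun w => Er 0 j B b w) 0 :=
        a0.continuousAt.comp (f := fun w : ℂ => (b, w)) hc
      have c1 : ContinuousAt (fun w => Er 1 j B b w) 0 :=
        a1.continuousAt.comp (f := fun w : ℂ => (b, w)) hc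
      exact (continuousAt_const.mul c0).add (continuousAt_const.mul c1)
    have hbound : ∀ᶠ w in 𝓝 (0 : ℂ), MM v b (b j + w) ≤ Real.sqrt ‖w‖ * ‖F w‖ := by
      filter_upwards [r0', r1', hok'] with w e0 e1 hk
      rcases eq_or_ne w 0 with rfl | hw
      · rw [add_zero, hM0]; positivity
      have hside : w ∈ Sl ∨ w ∈ Su := by
        by_cases hre : w.re = 0
        · rcases lt_trichotomy w.im 0 with h3 | h3 | h3
          · exact Or.inr (Or.inl h3)
          · exact absurd (Complex.ext hre h3) hw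
          · exact Or.inl (Or.inl h3)
        · exact Or.inl (Or.inr hre)
      have main : ∀ (C : Finset (Fin 6)) (s : ℂ), ‖s‖ = Real.sqrt ‖w‖ → OK C b (b j + w) →
          P 0 C b (b j + w) = P 0 B b (b j) + s * Er 0 j B b w →
          P 1 C b (b j + w) = P 1 B b (b j) + s * Er 1 j B b w →
          MM v b (b j + w) ≤ Real.sqrt ‖w‖ * ‖F w‖ := by
        intro C s hs hC q0 q1
        rw [MM, abs_VV_indep hFR hFL hb h0 (OK_TA b (b j + w)) hC, VV_def, q0, q1]
        have e : v.1 * (P 0 B b (b j) + s * Er 0 j B b w) +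
            v.2.1 * (P 1 B b (b j) + s * Er 1 j B b w) =
            (v.1 * P 0 B b (b j) + v.2.1 * P 1 B b (b j)) + s * F w := by rw [hF]; ring
        rw [e, add_re]
        rw [VV_def] at hB0
        have e2 : (v.1 * P 0 B b (b j) + v.2.1 * P 1 B b (b j)).re + (s * F w).re + v.2.2 =
            (s * F w).re := by linarith
        rw [e2, ← hs, ← norm_mul]
        exact abs_re_le_norm _
      rcases hside with h3 | h3
      · exact main B (rt w) (norm_rt w) (hk.1 h3) (e0.1 h3) (e1.1 h3)
      · exact main (insert j B) (ru w) (norm_ru w) (hk.2 h3) (e0.2 h3) (e1.2 h3)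
    have hlim : Tendsto (fun w : ℂ => MM v b (b j + w)) (𝓝 0) (𝓝 0) := by
      have l1 : Tendsto (fun w : ℂ => Real.sqrt ‖w‖ * ‖F w‖) (𝓝 0) (𝓝 0) := by
        have l2 : ContinuousAt (fun w : ℂ => Real.sqrt ‖w‖ * ‖F w‖) 0 := by
          refine ContinuousAt.mul ?_ hFc.norm
          fun_prop
        have := l2.tendsto
        simpa using this
      exact squeeze_zero' (Eventually.of_forall fun w => abs_nonneg _) hbound l1
    rw [ContinuousAt, hM0]
    have l3 : Tendsto (fun y : ℂ => y - b j) (𝓝 (b j)) (𝓝 0) := by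
      have : ContinuousAt (fun y : ℂ => y - b j) (b j) := by fun_prop
      have := this.tendsto
      simpa using this
    have l4 := hlim.comp l3
    refine l4.congr fun y => ?_
    simp

include hEX hLOW hHOL hROOT hFR hFL in
/-- **non degeneracy on all of `XX`** -/
theorem nondeg {b : C6} (hb : b ∈ XX) {v : ℂ × ℂ × ℝ} (h0 : ∀ j, VV v (lo j) b (b j) = 0) :
    v.1 = 0 ∧ v.2.1 = 0 := by
  refine H908.Pot.nondeg (b := b) (M := MM v b) ⟨continuous_MM hEX hLOW hHOL hROOT hFR hFL hb h0,
    fun j => ?_, fun x₀ hx => MM_loc hEX hLOW hHOL hFR hFL hb h0 hx⟩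
  rw [MM, VV_root_zero hFR hFL hb h0 (OK_TA b (b j)), abs_zero]

end Pot

end

end Vale.Agent.P273.H857
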